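import Vale.Agent.P207.H97.Grow

/-!
# P207: the growth subspaces span; the logarithm of the hyperbolic part
-/

open Set Filter Topology Metric Module
open scoped TensorProduct

noncomputable section

namespace Vale.Agent.P207.H97

variable {V : Type} [NormedAddCommGroup V] [NormedSpace ℝ V]

section Complex

variable {X : Type} [AddCommGroup X] [Module ℂ X]

/-- growth of the image of a generalised eigenvector -/
lemma gen_growth (T : Module.End ℂ X) (ρ : X → V) (hadd : ∀ x y, ρ (x + y) = ρ x + ρ y)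
    (hreal : ∀ (z : ℂ) x, ρ (z • x) = z.re • ρ x + z.im • ρ (Complex.I • x))
    {lam : ℂ} (hl : lam ≠ 0) :
    ∀ (k : ℕ) (x : X), ((T - lam • (1 : Module.End ℂ X)) ^ k) x = 0 → ∀ ε > 0, ∃ C : ℝ, 0 ≤ C ∧
      ∀ (n : ℕ) (z : ℂ), ‖ρ (z • (T ^ n) x)‖ ≤
        C * ‖z‖ * Real.exp ((Real.log ‖lam‖ + ε) * n) := by
  have hl0 : 0 < ‖lam‖ := norm_pos_iff.mpr hl
  have h0 : ρ 0 = 0 := by
    have := hadd 0 0
    simpa using this
  intro k
  induction k with
  | zero =>
    intro x hx ε hε
    refine ⟨0, le_rfl, fun n z => ?_⟩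
    have hx0 : x = 0 := by simpa using hx
    simp [hx0, h0]
  | succ k ih =>
    intro x hx ε hε
    set w : X := (T - lam • (1 : Module.End ℂ X)) x with hw
    have hw0 : ((T - lam • (1 : Module.End ℂ X)) ^ k) w = 0 := by
      rw [pow_succ] at hx
      exact hx
    obtain ⟨Cw, hCw, hw1⟩ := ih w hw0 (ε / 2) (by linarith)
    set e : ℝ := ε / 2 with he
    have hepos : 0 < e := by rw [he]; linarith
    set Cx : ℝ := ‖ρ x‖ + ‖ρ (Complex.I • x)‖ with hCx
    have hCx0 : 0 ≤ Cx := by positivity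
    have hz : ∀ z : ℂ, ‖ρ (z • x)‖ ≤ ‖z‖ * Cx := by
      intro z
      rw [hreal z x, hCx, mul_add]
      refine (norm_add_le _ _).trans ?_
      rw [norm_smul, norm_smul]
      exact add_le_add (mul_le_mul_of_nonneg_right (Complex.abs_re_le_norm z) (norm_nonneg _))
        (mul_le_mul_of_nonneg_right (Complex.abs_im_le_norm z) (norm_nonneg _))
    have hTx : T x = lam • x + w := by
      rw [hw]
      simp
    have key : ∀ (n : ℕ) (z : ℂ), ‖ρ (z • (T ^ n) x)‖ ≤
        ‖z‖ * ‖lam‖ ^ n * (Cx + n * (Cw / ‖lam‖) * Real.exp (e * n)) := by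
      intro n
      induction n with
      | zero =>
        intro z
        simpa using hz z
      | succ n ihn =>
        intro z
        have h1 : z • (T ^ (n + 1)) x = (z * lam) • (T ^ n) x + z • (T ^ n) w := by
          rw [pow_succ]
          show z • (T ^ n) (T x) = _
          rw [hTx, map_add, map_smul, smul_add, smul_smul]
        rw [h1, hadd]
        have h2 := ihn (z * lam)
        have h3 := hw1 n z
        have hexp : Real.exp ((Real.log ‖lam‖ + e) * n) = ‖lam‖ ^ n * Real.exp (e * n) := by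
          rw [add_mul, Real.exp_add, mul_comm (Real.log ‖lam‖), ← Real.log_pow,
            Real.exp_log (by positivity)]
        rw [hexp] at h3
        have hmono : Real.exp (e * n) ≤ Real.exp (e * ((n + 1 : ℕ) : ℝ)) := by
          gcongr
          simp
        calc ‖ρ ((z * lam) • (T ^ n) x) + ρ (z • (T ^ n) w)‖
            ≤ ‖z * lam‖ * ‖lam‖ ^ n * (Cx + n * (Cw / ‖lam‖) * Real.exp (e * n))
              + Cw * ‖z‖ * (‖lam‖ ^ n * Real.exp (e * n)) :=
              (norm_add_le _ _).trans (add_le_add h2 h3)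
          _ = ‖z‖ * ‖lam‖ ^ (n + 1) * (Cx + (n + 1) * (Cw / ‖lam‖) * Real.exp (e * n)) := by
              rw [norm_mul]
              field_simp
              ring
          _ ≤ ‖z‖ * ‖lam‖ ^ (n + 1)
              * (Cx + ((n + 1 : ℕ) : ℝ) * (Cw / ‖lam‖) * Real.exp (e * ((n + 1 : ℕ) : ℝ))) := by
              push_cast at hmono ⊢
              gcongr
    refine ⟨Cx + (Cw / ‖lam‖) / e, by positivity, fun n z => (key n z).trans ?_⟩
    have hexp : Real.exp ((Real.log ‖lam‖ + ε) * n) =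
        ‖lam‖ ^ n * (Real.exp (e * n) * Real.exp (e * n)) := by
      rw [← Real.exp_add, add_mul, Real.exp_add, mul_comm (Real.log ‖lam‖), ← Real.log_pow,
        Real.exp_log (by positivity)]
      congr 2
      rw [he]; ring
    rw [hexp]
    have h1 : (1 : ℝ) ≤ Real.exp (e * n) := Real.one_le_exp (by positivity)
    have h2 : (n : ℝ) ≤ Real.exp (e * n) / e := by
      rw [le_div_iff₀ hepos, mul_comm]
      linarith [Real.add_one_le_exp (e * n)]
    have h3 : Cx + n * (Cw / ‖lam‖) * Real.exp (e * n) ≤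
        (Cx + (Cw / ‖lam‖) / e) * (Real.exp (e * n) * Real.exp (e * n)) := by
      have h4 : Cx ≤ Cx * (Real.exp (e * n) * Real.exp (e * n)) :=
        le_mul_of_one_le_right hCx0 (by nlinarith)
      have h5 : n * (Cw / ‖lam‖) * Real.exp (e * n) ≤
          (Cw / ‖lam‖) / e * (Real.exp (e * n) * Real.exp (e * n)) := by
        calc n * (Cw / ‖lam‖) * Real.exp (e * n)
            ≤ (Real.exp (e * n) / e) * (Cw / ‖lam‖) * Real.exp (e * n) := by gcongr
          _ = _ := by ring
      calc _ ≤ _ := add_le_add h4 h5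
        _ = _ := by ring
    calc ‖z‖ * ‖lam‖ ^ n * (Cx + n * (Cw / ‖lam‖) * Real.exp (e * n))
        ≤ ‖z‖ * ‖lam‖ ^ n * ((Cx + (Cw / ‖lam‖) / e) * (Real.exp (e * n) * Real.exp (e * n))) := by
          gcongr
      _ = _ := by ring

end Complex

/-- real part -/
def reT (V : Type) [NormedAddCommGroup V] [NormedSpace ℝ V] : ℂ ⊗[ℝ] V →ₗ[ℝ] V :=
  (TensorProduct.lid ℝ V).toLinearMap ∘ₗ LinearMap.rTensor V Complex.reLm

lemma reT_tmul (z : ℂ) (v : V) : reT V (z ⊗ₜ v) = z.re • v := by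
  simp [reT]

lemma reT_real (z : ℂ) (x : ℂ ⊗[ℝ] V) :
    reT V (z • x) = z.re • reT V x + z.im • reT V (Complex.I • x) := by
  induction x with
  | zero => simp
  | tmul a v =>
    simp only [TensorProduct.smul_tmul', reT_tmul, smul_eq_mul, Complex.mul_re, Complex.I_re,
      Complex.I_im, zero_mul, one_mul, zero_sub]
    rw [smul_smul, smul_smul, ← add_smul]
    congr 1
    ring
  | add x y hx hy =>
    rw [smul_add, map_add, hx, hy, map_add, smul_add, smul_add, map_add, smul_add]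
    abel

lemma reT_base (A : V →L[ℝ] V) (x : ℂ ⊗[ℝ] V) :
    reT V (((A : V →ₗ[ℝ] V).baseChange ℂ) x) = A (reT V x) := by
  induction x with
  | zero => simp
  | tmul a v => simp [reT_tmul]
  | add x y hx hy => rw [map_add, map_add, hx, hy, map_add, map_add]

lemma reT_base_pow (A : V →L[ℝ] V) (n : ℕ) (x : ℂ ⊗[ℝ] V) :
    reT V ((((A : V →ₗ[ℝ] V).baseChange ℂ : Module.End ℂ (ℂ ⊗[ℝ] V)) ^ n) x)
      = (A ^ n) (reT V x) := by
  induction n generalizing x with
  | zero => simp
  | succ n ih =>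
    rw [pow_succ, pow_succ]
    show reT V ((((A : V →ₗ[ℝ] V).baseChange ℂ : Module.End ℂ (ℂ ⊗[ℝ] V)) ^ n)
      (((A : V →ₗ[ℝ] V).baseChange ℂ) x)) = (A ^ n) (A (reT V x))
    rw [ih, reT_base]

theorem iSup_gs [FiniteDimensional ℝ V] {A A' : V →L[ℝ] V}
    (h : A' ∘L A = ContinuousLinearMap.id ℝ V) (h' : A ∘L A' = ContinuousLinearMap.id ℝ V) :
    ⨆ μ, Gs A A' μ = ⊤ := by
  set T : Module.End ℂ (ℂ ⊗[ℝ] V) := (A : V →ₗ[ℝ] V).baseChange ℂ with hT
  set T' : Module.End ℂ (ℂ ⊗[ℝ] V) := (A' : V →ₗ[ℝ] V).baseChange ℂ with hT'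
  have hTT : T' * T = 1 := by
    rw [hT, hT', Module.End.mul_eq_comp, ← LinearMap.baseChange_comp]
    have : (A' : V →ₗ[ℝ] V) ∘ₗ (A : V →ₗ[ℝ] V) = LinearMap.id := by
      ext v
      have := congrArg (fun f : V →L[ℝ] V => f v) h
      simpa using this
    rw [this, LinearMap.baseChange_id]
    rfl
  have hTT' : T * T' = 1 := by
    rw [hT, hT', Module.End.mul_eq_comp, ← LinearMap.baseChange_comp]
    have : (A : V →ₗ[ℝ] V) ∘ₗ (A' : V →ₗ[ℝ] V) = LinearMap.id := by
      ext v
      have := congrArg (fun f : V →L[ℝ] V => f v) h'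
      simpa using this
    rw [this, LinearMap.baseChange_id]
    rfl
  have hgen : ∀ (lam : ℂ) (x : ℂ ⊗[ℝ] V), x ∈ T.maxGenEigenspace lam →
      reT V x ∈ ⨆ μ, Gs A A' μ := by
    intro lam x hx
    obtain ⟨k, hk⟩ := (Module.End.mem_maxGenEigenspace T lam x).mp hx
    by_cases hl : lam = 0
    · have hx0 : x = 0 := by
        rw [hl, zero_smul, sub_zero] at hk
        have h1 : (T' ^ k * T ^ k) x = 0 := by
          show (T' ^ k) ((T ^ k) x) = 0
          rw [hk, map_zero]
        have hc : Commute T' T := by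
          show T' * T = T * T'
          rw [hTT, hTT']
        rw [← hc.mul_pow, hTT, one_pow] at h1
        exact h1
      rw [hx0, map_zero]
      exact Submodule.zero_mem _
    · refine Submodule.mem_iSup_of_mem (Real.log ‖lam‖) ?_
      rw [mem_gs]
      intro ε hε
      constructor
      · obtain ⟨C, hC0, hC⟩ := gen_growth T (reT V) (fun x y => map_add _ _ _) reT_real hl k x hk ε hε
        refine ⟨C, fun n => ?_⟩
        have := hC n 1
        rw [one_smul, hT, reT_base_pow, norm_one, mul_one] at this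
        exact this
      · have hk' : ((T' - lam⁻¹ • (1 : Module.End ℂ (ℂ ⊗[ℝ] V))) ^ k) x = 0 := by
          have h1 : T' - lam⁻¹ • (1 : Module.End ℂ (ℂ ⊗[ℝ] V))
              = (-lam⁻¹) • (T' * (T - lam • (1 : Module.End ℂ (ℂ ⊗[ℝ] V)))) := by
            rw [mul_sub, hTT, mul_smul_comm, mul_one, smul_sub, neg_smul, neg_smul, smul_smul,
              inv_mul_cancel₀ hl, one_smul]
            abel
          have hc : Commute T' (T - lam • (1 : Module.End ℂ (ℂ ⊗[ℝ] V))) := by
            show T' * _ = _ * T'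
            rw [mul_sub, sub_mul, hTT, hTT', mul_smul_comm, smul_mul_assoc, mul_one, one_mul]
          rw [h1, smul_pow, hc.mul_pow]
          show (-lam⁻¹) ^ k • (T' ^ k) (((T - lam • (1 : Module.End ℂ (ℂ ⊗[ℝ] V))) ^ k) x) = 0
          rw [hk, map_zero, smul_zero]
        obtain ⟨C, hC0, hC⟩ := gen_growth T' (reT V) (fun x y => map_add _ _ _) reT_real
          (inv_ne_zero hl) k x hk' ε hε
        refine ⟨C, fun n => ?_⟩
        have := hC n 1
        rw [one_smul, hT', reT_base_pow, norm_one, mul_one, norm_inv, Real.log_inv] at this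
        exact this
  rw [eq_top_iff]
  intro v _
  have htop : ((1 : ℂ) ⊗ₜ[ℝ] v : ℂ ⊗[ℝ] V) ∈ ⨆ lam, T.maxGenEigenspace lam := by
    rw [Module.End.iSup_maxGenEigenspace_eq_top T]
    exact Submodule.mem_top
  have hv : reT V ((1 : ℂ) ⊗ₜ[ℝ] v) ∈ ⨆ μ, Gs A A' μ := by
    refine Submodule.iSup_induction (motive := fun x => reT V x ∈ ⨆ μ, Gs A A' μ) _ htop hgen ?_ ?_
    · rw [map_zero]
      exact Submodule.zero_mem _
    · intro x y hx hy
      rw [map_add]
      exact Submodule.add_mem _ hx hy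
  rw [reT_tmul, Complex.one_re, one_smul] at hv
  exact hv

/-- `T` is the logarithm of the hyperbolic part of `B` -/
def Ad (B B' T : V →L[ℝ] V) : Prop := ∀ ν, ∀ v ∈ Gs B B' ν, T v = ν • v

theorem exists_log [FiniteDimensional ℝ V] {A A' : V →L[ℝ] V}
    (h : A' ∘L A = ContinuousLinearMap.id ℝ V) (h' : A ∘L A' = ContinuousLinearMap.id ℝ V) :
    ∃ H : V →L[ℝ] V, Ad A A' H := by
  classical
  have hint : DirectSum.IsInternal (Gs A A') :=
    DirectSum.isInternal_submodule_of_iSupIndep_of_iSup_eq_top (gs_indep h) (iSup_gs h h')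
  let e := LinearEquiv.ofBijective (DirectSum.coeLinearMap (Gs A A')) hint
  let H : V →ₗ[ℝ] V := (DirectSum.toModule ℝ ℝ V (fun μ => μ • (Gs A A' μ).subtype)) ∘ₗ
    e.symm.toLinearMap
  refine ⟨LinearMap.toContinuousLinearMap H, fun μ v hv => ?_⟩
  have h1 : e (DirectSum.lof ℝ ℝ (fun μ => Gs A A' μ) μ ⟨v, hv⟩) = v := by
    show DirectSum.coeLinearMap (Gs A A') _ = v
    exact DirectSum.coeLinearMap_lof (Gs A A') μ ⟨v, hv⟩
  have h2 : e.symm v = DirectSum.lof ℝ ℝ (fun μ => Gs A A' μ) μ ⟨v, hv⟩ := by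
    rw [LinearEquiv.symm_apply_eq, h1]
  show H v = μ • v
  show (DirectSum.toModule ℝ ℝ V (fun μ => μ • (Gs A A' μ).subtype)) (e.symm v) = μ • v
  rw [h2, DirectSum.toModule_lof]
  rfl

end Vale.Agent.P207.H97
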