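import Vale.Agent.P207.H97.Span

/-!
# P207: the calculus of `Ad B B' T` (`T` = the logarithm of the hyperbolic part of `B`)
-/

open Set Filter Topology Metric Module
open scoped TensorProduct

noncomputable section

namespace Vale.Agent.P207.H97

variable {V W : Type} [NormedAddCommGroup V] [NormedSpace ℝ V]
  [NormedAddCommGroup W] [NormedSpace ℝ W]

lemma slow_const {T : V →L[ℝ] V} {c : ℝ} {v : V} {C : ℝ}
    (h : ∀ n : ℕ, ‖(T ^ n) v‖ ≤ C * Real.exp (c * n)) : 0 ≤ C := by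
  have := h 0
  simp only [pow_zero, Nat.cast_zero, mul_zero, Real.exp_zero, mul_one] at this
  exact (norm_nonneg _).trans this

lemma pow_cancel {A A' : V →L[ℝ] V} (h : A' ∘L A = ContinuousLinearMap.id ℝ V) (n : ℕ) (v : V) :
    (A' ^ n) ((A ^ n) v) = v := by
  induction n generalizing v with
  | zero => simp
  | succ n ih =>
    rw [pow_succ, pow_succ']
    show (A' ^ n) (A' (A ((A ^ n) v))) = v
    have : A' (A ((A ^ n) v)) = (A ^ n) v := by
      have := congrArg (fun f : V →L[ℝ] V => f ((A ^ n) v)) h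
      simpa using this
    rw [this, ih]

/-- the identity -/
theorem ad_id : Ad (ContinuousLinearMap.id ℝ V) (ContinuousLinearMap.id ℝ V) 0 := by
  intro ν v hv
  rw [mem_gs] at hv
  show (0 : V) = ν • v
  by_cases hν : ν = 0
  · rw [hν, zero_smul]
  · have hone : ∀ n : ℕ, ((ContinuousLinearMap.id ℝ V) ^ n) v = v := by
      intro n
      have : (ContinuousLinearMap.id ℝ V) ^ n = 1 := one_pow n
      rw [this]; rfl
    have key : ∀ c : ℝ, c < 0 → v ∈ Slow (ContinuousLinearMap.id ℝ V) c → v = 0 := by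
      rintro c hc ⟨C, hC⟩
      have hb : ∀ n : ℕ, ‖v‖ ≤ C * Real.exp (c * n) := fun n => by
        have := hC n
        rwa [hone n] at this
      have hlim : Tendsto (fun n : ℕ => C * Real.exp (c * n)) atTop (𝓝 (C * 0)) := by
        refine Tendsto.const_mul _ ?_
        refine Real.tendsto_exp_atBot.comp ?_
        exact (tendsto_natCast_atTop_atTop (R := ℝ)).const_mul_atTop_of_neg hc
      rw [mul_zero] at hlim
      exact norm_le_zero_iff.mp (ge_of_tendsto' hlim hb)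
    have hv0 : v = 0 := by
      rcases lt_or_gt_of_ne hν with h | h
      · exact key _ (by linarith) (hv (-ν / 2) (by linarith)).1
      · exact key _ (by linarith) (hv (ν / 2) (by linarith)).2
    rw [hv0, smul_zero]

/-- product -/
theorem ad_prod {B B' T : V →L[ℝ] V} {D D' S : W →L[ℝ] W} (hB : Ad B B' T) (hD : Ad D D' S) :
    Ad (B.prodMap D) (B'.prodMap D') (T.prodMap S) := by
  have hpow : ∀ (P : V →L[ℝ] V) (Q : W →L[ℝ] W) (n : ℕ) (x : V × W),
      ((P.prodMap Q) ^ n) x = ((P ^ n) x.1, (Q ^ n) x.2) := by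
    intro P Q n
    induction n with
    | zero => intro x; rfl
    | succ n ih =>
      intro x
      rw [pow_succ]
      show ((P.prodMap Q) ^ n) ((P.prodMap Q) x) = _
      rw [ih]
      rfl
  have hsl : ∀ (P : V →L[ℝ] V) (Q : W →L[ℝ] W) (c : ℝ) (x : V × W),
      x ∈ Slow (P.prodMap Q) c → x.1 ∈ Slow P c ∧ x.2 ∈ Slow Q c := by
    rintro P Q c x ⟨C, hC⟩
    refine ⟨⟨C, fun n => ?_⟩, ⟨C, fun n => ?_⟩⟩
    · have := hC n
      rw [hpow] at this
      exact (norm_fst_le ((P ^ n) x.1, (Q ^ n) x.2)).trans this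
    · have := hC n
      rw [hpow] at this
      exact (norm_snd_le ((P ^ n) x.1, (Q ^ n) x.2)).trans this
  intro ν x hx
  rw [mem_gs] at hx
  have h1 : x.1 ∈ Gs B B' ν := mem_gs.mpr fun ε hε =>
    ⟨(hsl _ _ _ _ (hx ε hε).1).1, (hsl _ _ _ _ (hx ε hε).2).1⟩
  have h2 : x.2 ∈ Gs D D' ν := mem_gs.mpr fun ε hε =>
    ⟨(hsl _ _ _ _ (hx ε hε).1).2, (hsl _ _ _ _ (hx ε hε).2).2⟩
  show (T x.1, S x.2) = ν • x
  rw [hB ν _ h1, hD ν _ h2]
  rfl

/-- the space of linear maps -/
theorem ad_hom [FiniteDimensional ℝ V] {A A' T : V →L[ℝ] V} {B B' S : W →L[ℝ] W}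
    (h : A' ∘L A = ContinuousLinearMap.id ℝ V) (h' : A ∘L A' = ContinuousLinearMap.id ℝ V)
    (hA : Ad A A' T) (hB : Ad B B' S) (BB BB' TT : (V →L[ℝ] W) →L[ℝ] (V →L[ℝ] W))
    (h1 : ∀ X v, BB X v = B (X (A' v))) (h2 : ∀ X v, BB' X v = B' (X (A v)))
    (h3 : ∀ X v, TT X v = S (X v) - X (T v)) : Ad BB BB' TT := by
  have hp1 : ∀ (n : ℕ) (X : V →L[ℝ] W) (v : V), (BB ^ n) X v = (B ^ n) (X ((A' ^ n) v)) := by
    intro n
    induction n with
    | zero => intro X v; rfl
    | succ n ih =>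
      intro X v
      rw [pow_succ, pow_succ (M := W →L[ℝ] W), pow_succ' (M := V →L[ℝ] V)]
      show (BB ^ n) (BB X) v = (B ^ n) (B (X (A' ((A' ^ n) v))))
      rw [ih, h1]
  have hp2 : ∀ (n : ℕ) (X : V →L[ℝ] W) (v : V), (BB' ^ n) X v = (B' ^ n) (X ((A ^ n) v)) := by
    intro n
    induction n with
    | zero => intro X v; rfl
    | succ n ih =>
      intro X v
      rw [pow_succ, pow_succ (M := W →L[ℝ] W), pow_succ' (M := V →L[ℝ] V)]
      show (BB' ^ n) (BB' X) v = (B' ^ n) (B' (X (A ((A ^ n) v))))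
      rw [ih, h2]
  intro ν X hX
  rw [mem_gs] at hX
  have key : ∀ μ, ∀ v ∈ Gs A A' μ, X v ∈ Gs B B' (ν + μ) := by
    intro μ v hv
    rw [mem_gs] at hv ⊢
    intro ε hε
    constructor
    · obtain ⟨C, hC⟩ := (hX (ε / 2) (by linarith)).1
      obtain ⟨D, hD⟩ := (hv (ε / 2) (by linarith)).1
      refine ⟨C * D, fun n => ?_⟩
      have e1 : (B ^ n) (X v) = (BB ^ n) X ((A ^ n) v) := by
        rw [hp1, pow_cancel h]
      rw [e1]
      calc ‖(BB ^ n) X ((A ^ n) v)‖ ≤ ‖(BB ^ n) X‖ * ‖(A ^ n) v‖ :=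
            ContinuousLinearMap.le_opNorm _ _
        _ ≤ (C * Real.exp ((ν + ε / 2) * n)) * (D * Real.exp ((μ + ε / 2) * n)) := by
            have hC0 := slow_const hC
            exact mul_le_mul (hC n) (hD n) (norm_nonneg _) (by positivity)
        _ = C * D * Real.exp ((ν + μ + ε) * n) := by
            rw [mul_mul_mul_comm, ← Real.exp_add]
            congr 2
            ring
    · obtain ⟨C, hC⟩ := (hX (ε / 2) (by linarith)).2
      obtain ⟨D, hD⟩ := (hv (ε / 2) (by linarith)).2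
      refine ⟨C * D, fun n => ?_⟩
      have e1 : (B' ^ n) (X v) = (BB' ^ n) X ((A' ^ n) v) := by
        rw [hp2, pow_cancel h']
      rw [e1]
      calc ‖(BB' ^ n) X ((A' ^ n) v)‖ ≤ ‖(BB' ^ n) X‖ * ‖(A' ^ n) v‖ :=
            ContinuousLinearMap.le_opNorm _ _
        _ ≤ (C * Real.exp ((-ν + ε / 2) * n)) * (D * Real.exp ((-μ + ε / 2) * n)) := by
            have hC0 := slow_const hC
            exact mul_le_mul (hC n) (hD n) (norm_nonneg _) (by positivity)
        _ = C * D * Real.exp ((-(ν + μ) + ε) * n) := by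
            rw [mul_mul_mul_comm, ← Real.exp_add]
            congr 2
            ring
  ext v
  have hv : v ∈ ⨆ μ, Gs A A' μ := by
    rw [iSup_gs h h']
    exact Submodule.mem_top
  refine Submodule.iSup_induction (motive := fun v => TT X v = (ν • X) v) _ hv ?_ ?_ ?_
  · intro μ v hv
    rw [h3, hB _ _ (key μ v hv), hA μ v hv, map_smul, smul_apply, add_smul]
    abel
  · rw [map_zero, map_zero]
  · intro x y hx hy
    rw [map_add, map_add, hx, hy]

/-- `T` commutes with `B` -/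
theorem ad_comm [FiniteDimensional ℝ V] {B B' T : V →L[ℝ] V}
    (h : B' ∘L B = ContinuousLinearMap.id ℝ V) (h' : B ∘L B' = ContinuousLinearMap.id ℝ V)
    (hT : Ad B B' T) (v : V) : T (B v) = B (T v) := by
  have hv : v ∈ ⨆ μ, Gs B B' μ := by
    rw [iSup_gs h h']
    exact Submodule.mem_top
  refine Submodule.iSup_induction (motive := fun v => T (B v) = B (T v)) _ hv ?_ ?_ ?_
  · intro μ v hv
    have hBv : B v ∈ Gs B B' μ := by
      rw [mem_gs] at hv ⊢
      exact fun ε hε => ⟨slow_map (hv ε hε).1, slow_map' h (hv ε hε).2⟩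
    rw [hT μ v hv, hT μ _ hBv, map_smul]
  · simp
  · intro x y hx hy
    simp only [map_add]
    rw [hx, hy]

/-- an invariant subspace is the sum of its parts -/
theorem gs_split [FiniteDimensional ℝ V] {B B' : V →L[ℝ] V}
    (h : B' ∘L B = ContinuousLinearMap.id ℝ V) (h' : B ∘L B' = ContinuousLinearMap.id ℝ V)
    {F : Submodule ℝ V} (hF : ∀ v ∈ F, B v ∈ F) (hF' : ∀ v ∈ F, B' v ∈ F) :
    F ≤ ⨆ μ, F ⊓ Gs B B' μ := by
  set C : F →L[ℝ] F := (B.comp F.subtypeL).codRestrict F (fun v => hF v v.2) with hC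
  set C' : F →L[ℝ] F := (B'.comp F.subtypeL).codRestrict F (fun v => hF' v v.2) with hC'
  have hc : C' ∘L C = ContinuousLinearMap.id ℝ F := by
    refine ContinuousLinearMap.ext fun v => Subtype.ext ?_
    exact congrArg (fun f : V →L[ℝ] V => f (v : V)) h
  have hc' : C ∘L C' = ContinuousLinearMap.id ℝ F := by
    refine ContinuousLinearMap.ext fun v => Subtype.ext ?_
    exact congrArg (fun f : V →L[ℝ] V => f (v : V)) h'
  have hp : ∀ (n : ℕ) (v : F), (((C ^ n) v : F) : V) = (B ^ n) (v : V) := by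
    intro n
    induction n with
    | zero => intro v; rfl
    | succ n ih =>
      intro v
      rw [pow_succ, pow_succ]
      show (((C ^ n) (C v) : F) : V) = (B ^ n) (B v)
      rw [ih]
      rfl
  have hp' : ∀ (n : ℕ) (v : F), (((C' ^ n) v : F) : V) = (B' ^ n) (v : V) := by
    intro n
    induction n with
    | zero => intro v; rfl
    | succ n ih =>
      intro v
      rw [pow_succ, pow_succ]
      show (((C' ^ n) (C' v) : F) : V) = (B' ^ n) (B' v)
      rw [ih]
      rfl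
  intro v hv
  have htop : (⟨v, hv⟩ : F) ∈ ⨆ μ, Gs C C' μ := by
    rw [iSup_gs hc hc']
    exact Submodule.mem_top
  refine Submodule.iSup_induction (motive := fun x : F => (x : V) ∈ ⨆ μ, F ⊓ Gs B B' μ) _ htop
    ?_ ?_ ?_
  · intro μ x hx
    have hx2 : (x : V) ∈ Gs B B' μ := by
      rw [mem_gs]
      intro ε hε
      obtain ⟨⟨D, hD⟩, ⟨D', hD'⟩⟩ := mem_gs.mp hx ε hε
      refine ⟨⟨D, fun n => ?_⟩, ⟨D', fun n => ?_⟩⟩
      · rw [← hp]; exact hD n
      · rw [← hp']; exact hD' n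
    exact Submodule.mem_iSup_of_mem μ ⟨x.2, hx2⟩
  · exact Submodule.zero_mem _
  · intro x y hx hy
    exact Submodule.add_mem _ hx hy

/-- an invariant subspace of `B` is invariant under `T` -/
theorem ad_inv [FiniteDimensional ℝ V] {B B' T : V →L[ℝ] V}
    (h : B' ∘L B = ContinuousLinearMap.id ℝ V) (h' : B ∘L B' = ContinuousLinearMap.id ℝ V)
    (hT : Ad B B' T) {F : Submodule ℝ V} (hF : ∀ v ∈ F, B v ∈ F) (hF' : ∀ v ∈ F, B' v ∈ F) :
    ∀ v ∈ F, T v ∈ F := by
  intro v hv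
  refine Submodule.iSup_induction (motive := fun x : V => T x ∈ F) _ (gs_split h h' hF hF' hv)
    ?_ ?_ ?_
  · rintro μ x ⟨hx, hx'⟩
    rw [hT μ x hx']
    exact F.smul_mem _ hx
  · rw [map_zero]; exact F.zero_mem
  · intro x y hx hy
    rw [map_add]
    exact F.add_mem hx hy

lemma fix_gs {B B' : V →L[ℝ] V} (h : B' ∘L B = ContinuousLinearMap.id ℝ V) {w : V}
    (hw : B w = w) : w ∈ Gs B B' 0 := by
  have hw' : B' w = w := by
    have := congrArg (fun f : V →L[ℝ] V => f w) h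
    simp only [ContinuousLinearMap.comp_apply, hw, ContinuousLinearMap.id_apply] at this
    exact this
  have hp : ∀ (T : V →L[ℝ] V), T w = w → ∀ n : ℕ, (T ^ n) w = w := by
    intro T hT n
    induction n with
    | zero => rfl
    | succ n ih =>
      rw [pow_succ]
      show (T ^ n) (T w) = w
      rw [hT, ih]
  rw [mem_gs]
  intro ε hε
  refine ⟨⟨‖w‖, fun n => ?_⟩, ⟨‖w‖, fun n => ?_⟩⟩
  · rw [hp B hw]
    exact le_mul_of_one_le_right (norm_nonneg _) (Real.one_le_exp (by positivity))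
  · rw [hp B' hw']
    refine le_mul_of_one_le_right (norm_nonneg _) (Real.one_le_exp ?_)
    rw [neg_zero, zero_add]
    positivity

/-- a fixed vector is killed by `T` -/
theorem ad_fix {B B' T : V →L[ℝ] V} (h : B' ∘L B = ContinuousLinearMap.id ℝ V)
    (hT : Ad B B' T) {w : V} (hw : B w = w) : T w = 0 := by
  rw [hT 0 w (fix_gs h hw), zero_smul]

/-- the eigenspaces of `T` are the growth subspaces -/
theorem ad_eig [FiniteDimensional ℝ V] {B B' T : V →L[ℝ] V}
    (h : B' ∘L B = ContinuousLinearMap.id ℝ V) (h' : B ∘L B' = ContinuousLinearMap.id ℝ V)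
    (hT : Ad B B' T) {μ : ℝ} {v : V} (hv : T v = μ • v) : v ∈ Gs B B' μ := by
  have hle : ∀ ν, Gs B B' ν ≤ Module.End.eigenspace (T : V →ₗ[ℝ] V) ν := by
    intro ν x hx
    rw [Module.End.mem_eigenspace_iff]
    exact hT ν x hx
  have hv' : v ∈ Module.End.eigenspace (T : V →ₗ[ℝ] V) μ := by
    rw [Module.End.mem_eigenspace_iff]
    exact hv
  have htop : v ∈ Gs B B' μ ⊔ ⨆ (ν : ℝ) (_ : ν ≠ μ), Gs B B' ν := by
    have h1 : (⨆ ν, Gs B B' ν) ≤ Gs B B' μ ⊔ ⨆ (ν : ℝ) (_ : ν ≠ μ), Gs B B' ν := by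
      refine iSup_le fun ν => ?_
      by_cases hν : ν = μ
      · rw [hν]; exact le_sup_left
      · exact le_sup_of_le_right (le_iSup₂ (f := fun (ν : ℝ) (_ : ν ≠ μ) => Gs B B' ν) ν hν)
    apply h1
    rw [iSup_gs h h']
    exact Submodule.mem_top
  obtain ⟨y, hy, z, hz, hyz⟩ := Submodule.mem_sup.mp htop
  have hz0 : z = 0 := by
    have hzl : z ∈ ⨆ (ν : ℝ) (_ : ν ≠ μ), Module.End.eigenspace (T : V →ₗ[ℝ] V) ν := by
      have : (⨆ (ν : ℝ) (_ : ν ≠ μ), Gs B B' ν) ≤
          ⨆ (ν : ℝ) (_ : ν ≠ μ), Module.End.eigenspace (T : V →ₗ[ℝ] V) ν :=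
        iSup₂_mono fun ν _ => hle ν
      exact this hz
    have hzm : z ∈ Module.End.eigenspace (T : V →ₗ[ℝ] V) μ := by
      have : z = v - y := by rw [← hyz]; abel
      rw [this]
      exact Submodule.sub_mem _ hv' (hle μ hy)
    have hind := Module.End.eigenspaces_iSupIndep (T : V →ₗ[ℝ] V) μ
    rw [Submodule.disjoint_def] at hind
    exact hind z hzm hzl
  rw [hz0, add_zero] at hyz
  rw [← hyz]
  exact hy

/-- conclusion for subspaces -/
theorem ad_eq [FiniteDimensional ℝ V] {B B' T : V →L[ℝ] V}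
    (h : B' ∘L B = ContinuousLinearMap.id ℝ V) (h' : B ∘L B' = ContinuousLinearMap.id ℝ V)
    (hT : Ad B B' T) {F₀ F₁ : Submodule ℝ V} (hF : ∀ v ∈ F₀, B v ∈ F₀)
    (hF' : ∀ v ∈ F₀, B' v ∈ F₀) (h1 : ∀ v ∈ F₁, T v ∈ F₁) {K q : ℝ} (hq0 : 0 ≤ q) (hq : q < 1)
    (hcl : ∀ n : ℕ, ∀ u ∈ F₁, ∃ f ∈ F₀, ‖(B ^ n) u - f‖ ≤ K * q ^ n * ‖(B ^ n) u‖) :
    F₁ ≤ F₀ := by
  have hle : ∀ ν, Gs B B' ν ≤ Module.End.eigenspace (T : V →ₗ[ℝ] V) ν := by
    intro ν x hx
    rw [Module.End.mem_eigenspace_iff]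
    exact hT ν x hx
  have htop : (⨆ μ, Module.End.eigenspace (T : V →ₗ[ℝ] V) μ) = ⊤ := by
    rw [eq_top_iff, ← iSup_gs h h']
    exact iSup_mono hle
  have hspl : F₁ ≤ ⨆ μ, F₁ ⊓ Module.End.eigenspace (T : V →ₗ[ℝ] V) μ := by
    have := Submodule.inf_iSup_genEigenspace (p := F₁) (f := (T : V →ₗ[ℝ] V)) h1 1
    calc F₁ = F₁ ⊓ ⨆ μ, Module.End.eigenspace (T : V →ₗ[ℝ] V) μ := by rw [htop, inf_top_eq]
      _ ≤ _ := le_of_eq this
  refine hspl.trans (iSup_le fun μ => ?_)
  rintro u ⟨hu, hu'⟩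
  have hu'' : T u = μ • u := Module.End.mem_eigenspace_iff.mp hu'
  have hug : u ∈ Gs B B' μ := ad_eig h h' hT hu''
  -- the projection
  have hcompl : IsCompl (Gs B B' μ) (⨆ (ν : ℝ) (_ : ν ≠ μ), Gs B B' ν) := by
    refine ⟨gs_indep h μ, ?_⟩
    rw [codisjoint_iff, eq_top_iff, ← iSup_gs h h']
    refine iSup_le fun ν => ?_
    by_cases hν : ν = μ
    · rw [hν]; exact le_sup_left
    · exact le_sup_of_le_right (le_iSup₂ (f := fun (ν : ℝ) (_ : ν ≠ μ) => Gs B B' ν) ν hν)
  set P : V →L[ℝ] V := LinearMap.toContinuousLinearMap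
    ((Gs B B' μ).subtype ∘ₗ Submodule.projectionOnto _ _ hcompl) with hP
  have hPmem : ∀ x, P x ∈ Gs B B' μ := fun x =>
    (Submodule.projectionOnto _ _ hcompl x).2
  have hPid : ∀ x ∈ Gs B B' μ, P x = x := by
    intro x hx
    show ((Submodule.projectionOnto _ _ hcompl x : Gs B B' μ) : V) = x
    have := Submodule.projectionOnto_apply_left hcompl ⟨x, hx⟩
    rw [this]
  have hP0 : ∀ x ∈ (⨆ (ν : ℝ) (_ : ν ≠ μ), Gs B B' ν), P x = 0 := by
    intro x hx
    show ((Submodule.projectionOnto _ _ hcompl x : Gs B B' μ) : V) = 0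
    have := Submodule.projectionOnto_apply_right hcompl ⟨x, hx⟩
    rw [this]
    rfl
  have hPF : ∀ f ∈ F₀, P f ∈ F₀ := by
    intro f hf
    refine Submodule.iSup_induction (motive := fun x : V => P x ∈ F₀) _ (gs_split h h' hF hF' hf)
      ?_ ?_ ?_
    · rintro ν x ⟨hx, hx'⟩
      by_cases hν : ν = μ
      · rw [hPid x (hν ▸ hx')]
        exact hx
      · rw [hP0 x ((le_iSup₂ (f := fun (ν : ℝ) (_ : ν ≠ μ) => Gs B B' ν) ν hν) hx')]
        exact F₀.zero_mem
    · rw [map_zero]; exact F₀.zero_mem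
    · intro x y hx hy
      rw [map_add]
      exact F₀.add_mem hx hy
  -- the estimates
  set q₁ : ℝ := max q (1 / 2) with hq1
  have hq1pos : 0 < q₁ := lt_of_lt_of_le (by norm_num) (le_max_right _ _)
  have hq1lt : q₁ < 1 := max_lt hq (by norm_num)
  set ε : ℝ := -Real.log q₁ / 4 with hε
  have hεpos : 0 < ε := by
    have := Real.log_neg hq1pos hq1lt
    rw [hε]; linarith
  obtain ⟨C, hC0, hC⟩ := slow_unif (T := B') (c := -μ + ε) (W := Gs B B' μ)
    (fun x hx => (mem_gs.mp hx ε hεpos).2)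
  obtain ⟨D, hD⟩ := (mem_gs.mp hug ε hεpos).1
  have hD0 : 0 ≤ D := slow_const hD
  choose f hf hfn using fun n => hcl n u hu
  have hBn : ∀ n : ℕ, (B ^ n) u ∈ Gs B B' μ := by
    intro n
    induction n with
    | zero => exact hug
    | succ n ih =>
      rw [pow_succ']
      show B ((B ^ n) u) ∈ _
      rw [mem_gs] at ih ⊢
      exact fun ε hε => ⟨slow_map (ih ε hε).1, slow_map' h (ih ε hε).2⟩
  have hB'F : ∀ (n : ℕ), ∀ x ∈ F₀, (B' ^ n) x ∈ F₀ := by
    intro n
    induction n with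
    | zero => intro x hx; exact hx
    | succ n ih =>
      intro x hx
      rw [pow_succ]
      exact ih _ (hF' x hx)
  have hbound : ∀ n : ℕ, ‖u - (B' ^ n) (P (f n))‖ ≤
      (C * ‖P‖ * |K| * D) * (Real.exp (2 * ε) * q₁) ^ n := by
    intro n
    have e1 : u - (B' ^ n) (P (f n)) = (B' ^ n) (P ((B ^ n) u - f n)) := by
      rw [map_sub, map_sub, hPid _ (hBn n), pow_cancel h]
    rw [e1]
    calc ‖(B' ^ n) (P ((B ^ n) u - f n))‖
        ≤ C * Real.exp ((-μ + ε) * n) * ‖P ((B ^ n) u - f n)‖ := hC n _ (hPmem _)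
      _ ≤ C * Real.exp ((-μ + ε) * n) * (‖P‖ * (|K| * q₁ ^ n * (D * Real.exp ((μ + ε) * n)))) := by
          gcongr
          calc ‖P ((B ^ n) u - f n)‖ ≤ ‖P‖ * ‖(B ^ n) u - f n‖ := P.le_opNorm _
            _ ≤ ‖P‖ * (|K| * q₁ ^ n * (D * Real.exp ((μ + ε) * n))) := by
                gcongr
                calc ‖(B ^ n) u - f n‖ ≤ K * q ^ n * ‖(B ^ n) u‖ := hfn n
                  _ ≤ |K| * q₁ ^ n * (D * Real.exp ((μ + ε) * n)) := by
                      have h2 : q ^ n ≤ q₁ ^ n := pow_le_pow_left₀ hq0 (le_max_left _ _) n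
                      exact mul_le_mul (mul_le_mul (le_abs_self K) h2 (by positivity)
                        (abs_nonneg K)) (hD n) (norm_nonneg _) (by positivity)
      _ = (C * ‖P‖ * |K| * D) * (Real.exp (2 * ε) * q₁) ^ n := by
          rw [mul_pow, ← Real.exp_nat_mul]
          have : Real.exp (n * (2 * ε)) = Real.exp ((-μ + ε) * n) * Real.exp ((μ + ε) * n) := by
            rw [← Real.exp_add]
            congr 1
            ring
          rw [this]
          ring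
  have hr : Real.exp (2 * ε) * q₁ < 1 := by
    have h3 : Real.exp (2 * ε) * q₁ = Real.exp (Real.log q₁ / 2) := by
      calc Real.exp (2 * ε) * q₁ = Real.exp (2 * ε) * Real.exp (Real.log q₁) := by
            rw [Real.exp_log hq1pos]
        _ = Real.exp (Real.log q₁ / 2) := by
            rw [← Real.exp_add]
            congr 1
            rw [hε]; ring
    rw [h3, Real.exp_lt_one_iff]
    have := Real.log_neg hq1pos hq1lt
    linarith
  have hlim : Tendsto (fun n : ℕ => (B' ^ n) (P (f n))) atTop (𝓝 u) := by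
    rw [tendsto_iff_norm_sub_tendsto_zero]
    have h4 : Tendsto (fun n : ℕ => (C * ‖P‖ * |K| * D) * (Real.exp (2 * ε) * q₁) ^ n) atTop
        (𝓝 ((C * ‖P‖ * |K| * D) * 0)) :=
      (tendsto_pow_atTop_nhds_zero_of_lt_one (by positivity) hr).const_mul _
    rw [mul_zero] at h4
    refine squeeze_zero (fun n => norm_nonneg _) (fun n => ?_) h4
    rw [norm_sub_rev]
    exact hbound n
  exact (Submodule.closed_of_finiteDimensional F₀).mem_of_tendsto hlim
    (Eventually.of_forall fun n => hB'F n _ (hPF _ (hf n)))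

/-- conclusion for vectors -/
theorem ad_eq_vec [FiniteDimensional ℝ V] {B B' T : V →L[ℝ] V}
    (h : B' ∘L B = ContinuousLinearMap.id ℝ V) (h' : B ∘L B' = ContinuousLinearMap.id ℝ V)
    (hT : Ad B B' T) {w w' : V} (hw : B w = w) (hw' : T w' = 0) {K q : ℝ} (hq0 : 0 ≤ q)
    (hq : q < 1) (hcl : ∀ n : ℕ, ‖(B ^ n) w' - w‖ ≤ K * q ^ n) : w' = w := by
  have hg : w' - w ∈ Gs B B' 0 :=
    Submodule.sub_mem _ (ad_eig h h' hT (by rw [hw', zero_smul])) (fix_gs h hw)
  set q₁ : ℝ := max q (1 / 2) with hq1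
  have hq1pos : 0 < q₁ := lt_of_lt_of_le (by norm_num) (le_max_right _ _)
  have hq1lt : q₁ < 1 := max_lt hq (by norm_num)
  have hlog : Real.log q₁ < 0 := Real.log_neg hq1pos hq1lt
  have hp : ∀ n : ℕ, (B ^ n) w = w := by
    intro n
    induction n with
    | zero => rfl
    | succ n ih =>
      rw [pow_succ]
      show (B ^ n) (B w) = w
      rw [hw, ih]
  have h1 : w' - w ∈ Slow B (Real.log q₁) := by
    refine ⟨|K|, fun n => ?_⟩
    rw [map_sub, hp]
    refine (hcl n).trans ?_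
    have h2 : q ^ n ≤ q₁ ^ n := pow_le_pow_left₀ hq0 (le_max_left _ _) n
    have h3 : Real.exp (Real.log q₁ * n) = q₁ ^ n := by
      rw [mul_comm, ← Real.log_pow, Real.exp_log (by positivity)]
    rw [h3]
    exact mul_le_mul (le_abs_self K) h2 (by positivity) (abs_nonneg K)
  have h2 := (mem_gs.mp hg (-Real.log q₁ / 2) (by linarith)).2
  have h3 := slow_disj h (by linarith : Real.log q₁ + (-0 + -Real.log q₁ / 2) < 0) h1 h2
  exact sub_eq_zero.mp h3

/-- if the inverse contracts, the logarithm is injective -/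
theorem ad_inj [FiniteDimensional ℝ V] {A A' H : V →L[ℝ] V}
    (h : A' ∘L A = ContinuousLinearMap.id ℝ V) (h' : A ∘L A' = ContinuousLinearMap.id ℝ V)
    (hH : Ad A A' H) {a : ℝ} (ha : 0 < a) (hsl : ∀ v, v ∈ Slow A' (-a)) :
    Function.Injective H := by
  rw [injective_iff_map_eq_zero]
  intro v hv
  have h1 : v ∈ Gs A A' 0 := ad_eig h h' hH (by rw [hv, zero_smul])
  exact slow_disj h (by linarith : (0 + a / 2) + -a < 0) (mem_gs.mp h1 (a / 2) (by linarith)).1
    (hsl v)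

end Vale.Agent.P207.H97
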