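import Vale.Agent.P207.H97.Ad

/-!
# P207: the logarithm of the adjoint
-/

open Set Filter Topology Metric Module

noncomputable section

namespace Vale.Agent.P207.H97

variable {V : Type} [NormedAddCommGroup V] [InnerProductSpace ℝ V] [FiniteDimensional ℝ V]

lemma adjoint_pow (A : V →L[ℝ] V) (n : ℕ) (w v : V) :
    inner ℝ (((ContinuousLinearMap.adjoint A) ^ n) w) v = inner ℝ w ((A ^ n) v) := by
  induction n generalizing w v with
  | zero => rfl
  | succ n ih =>
    rw [pow_succ, pow_succ']
    show inner ℝ (((ContinuousLinearMap.adjoint A) ^ n) (ContinuousLinearMap.adjoint A w)) v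
      = inner ℝ w (A ((A ^ n) v))
    rw [ih, ContinuousLinearMap.adjoint_inner_left]

theorem ad_adj {A A' T : V →L[ℝ] V} (h : A' ∘L A = ContinuousLinearMap.id ℝ V)
    (h' : A ∘L A' = ContinuousLinearMap.id ℝ V) (hA : Ad A A' T) :
    Ad (ContinuousLinearMap.adjoint A') (ContinuousLinearMap.adjoint A)
      (-(ContinuousLinearMap.adjoint T)) := by
  intro ν w hw
  rw [mem_gs] at hw
  -- the pairing vanishes unless the weights are opposite
  have pair : ∀ μ, ∀ v ∈ Gs A A' μ, ν + μ ≠ 0 → inner ℝ w v = 0 := by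
    intro μ v hv hne
    rw [mem_gs] at hv
    have key : ∀ c : ℝ, c < 0 → (∃ C : ℝ, ∀ n : ℕ, |inner ℝ w v| ≤ C * Real.exp (c * n)) →
        inner ℝ w v = 0 := by
      rintro c hc ⟨C, hC⟩
      have hlim : Tendsto (fun n : ℕ => C * Real.exp (c * n)) atTop (𝓝 (C * 0)) := by
        refine Tendsto.const_mul _ ?_
        refine Real.tendsto_exp_atBot.comp ?_
        exact (tendsto_natCast_atTop_atTop (R := ℝ)).const_mul_atTop_of_neg hc
      rw [mul_zero] at hlim
      have := ge_of_tendsto' hlim hC
      exact abs_eq_zero.mp (le_antisymm this (abs_nonneg _))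
    rcases lt_or_gt_of_ne hne with hlt | hgt
    · obtain ⟨C, hC⟩ := (hw (-(ν + μ) / 4) (by linarith)).1
      obtain ⟨D, hD⟩ := (hv (-(ν + μ) / 4) (by linarith)).1
      refine key ((ν + μ) / 2) (by linarith) ⟨C * D, fun n => ?_⟩
      have e1 : inner ℝ w v
          = inner ℝ (((ContinuousLinearMap.adjoint A') ^ n) w) ((A ^ n) v) := by
        rw [adjoint_pow, pow_cancel h]
      rw [e1]
      calc |inner ℝ (((ContinuousLinearMap.adjoint A') ^ n) w) ((A ^ n) v)|
          ≤ ‖((ContinuousLinearMap.adjoint A') ^ n) w‖ * ‖(A ^ n) v‖ := abs_real_inner_le_norm _ _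
        _ ≤ (C * Real.exp ((ν + -(ν + μ) / 4) * n)) * (D * Real.exp ((μ + -(ν + μ) / 4) * n)) := by
            have hC0 := slow_const hC
            exact mul_le_mul (hC n) (hD n) (norm_nonneg _) (by positivity)
        _ = C * D * Real.exp ((ν + μ) / 2 * n) := by
            rw [mul_mul_mul_comm, ← Real.exp_add]
            congr 2
            ring
    · obtain ⟨C, hC⟩ := (hw ((ν + μ) / 4) (by linarith)).2
      obtain ⟨D, hD⟩ := (hv ((ν + μ) / 4) (by linarith)).2
      refine key (-(ν + μ) / 2) (by linarith) ⟨C * D, fun n => ?_⟩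
      have e1 : inner ℝ w v
          = inner ℝ (((ContinuousLinearMap.adjoint A) ^ n) w) ((A' ^ n) v) := by
        rw [adjoint_pow, pow_cancel h']
      rw [e1]
      calc |inner ℝ (((ContinuousLinearMap.adjoint A) ^ n) w) ((A' ^ n) v)|
          ≤ ‖((ContinuousLinearMap.adjoint A) ^ n) w‖ * ‖(A' ^ n) v‖ := abs_real_inner_le_norm _ _
        _ ≤ (C * Real.exp ((-ν + (ν + μ) / 4) * n)) * (D * Real.exp ((-μ + (ν + μ) / 4) * n)) := by
            have hC0 := slow_const hC
            exact mul_le_mul (hC n) (hD n) (norm_nonneg _) (by positivity)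
        _ = C * D * Real.exp (-(ν + μ) / 2 * n) := by
            rw [mul_mul_mul_comm, ← Real.exp_add]
            congr 2
            ring
  have hall : ∀ v : V, inner ℝ ((-(ContinuousLinearMap.adjoint T)) w) v = inner ℝ (ν • w) v := by
    intro v
    have hv : v ∈ ⨆ μ, Gs A A' μ := by
      rw [iSup_gs h h']
      exact Submodule.mem_top
    refine Submodule.iSup_induction (motive := fun v =>
      inner ℝ ((-(ContinuousLinearMap.adjoint T)) w) v = inner ℝ (ν • w) v) _ hv ?_ ?_ ?_
    · intro μ v hv
      have e1 : inner ℝ ((-(ContinuousLinearMap.adjoint T)) w) v = -(μ * inner ℝ w v) := by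
        show inner ℝ (-(ContinuousLinearMap.adjoint T w)) v = _
        rw [inner_neg_left, ContinuousLinearMap.adjoint_inner_left, hA μ v hv, inner_smul_right]
      rw [e1, real_inner_smul_left]
      by_cases hne : ν + μ = 0
      · have : μ = -ν := by linarith
        rw [this]; ring
      · rw [pair μ v hv hne]; ring
    · rw [inner_zero_right, inner_zero_right]
    · intro x y hx hy
      rw [inner_add_right, inner_add_right, hx, hy]
  exact ext_inner_right ℝ hall

end Vale.Agent.P207.H97
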