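import Vale.Agent.P207.N4.Spec

/-!
# P207, clocks: an invariant continuous time change

A clock `c` is a continuous positive function on the frame bundle, invariant under the group, the
rotations and the flip; `σ t x` is the time shown by the clock along the orbit of `x`, `τ S x` is
the real time at which the clock shows `S`.
-/

open Set Filter Topology Metric MeasureTheory
open scoped ContDiff

noncomputable section

namespace Vale.Agent.P207.N4.H97

variable [Dim]

variable {Γ X B : Type} [Group Γ] [MetricSpace X] [ProperSpace X] [MulAction Γ X]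
  [IsIsometricSMul Γ X] [TopologicalSpace B] [CompactSpace B] [T2Space B] [MulAction Γ B]
  [ContinuousConstSMul Γ B]

/-- A clock. -/
structure Clock (L : Leaf Γ X B) where
  c : X → ℝ
  c_cont : Continuous c
  lo : ℝ
  hi : ℝ
  lo_pos : 0 < lo
  c_lo : ∀ x, lo ≤ c x
  c_hi : ∀ x, c x ≤ hi
  c_smul : ∀ (g : Γ) x, c (g • x) = c x
  c_rot : ∀ a x, c (L.rot a x) = c x
  c_flip : ∀ x, c (L.flip x) = c x

namespace Clock

variable {L : Leaf Γ X B} (K : Clock L)

/-- the time shown by the clock -/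
def σ (t : ℝ) (x : X) : ℝ := ∫ s in (0 : ℝ)..t, K.c (L.φ s x)

theorem hi_pos : 0 < K.hi := by
  obtain ⟨x⟩ := L.nonempty
  exact K.lo_pos.trans_le ((K.c_lo x).trans (K.c_hi x))

theorem lo_le_hi : K.lo ≤ K.hi := by
  obtain ⟨x⟩ := L.nonempty
  exact (K.c_lo x).trans (K.c_hi x)

theorem c_pos (x : X) : 0 < K.c x := K.lo_pos.trans_le (K.c_lo x)

theorem orb_cont (x : X) : Continuous fun s => K.c (L.φ s x) :=
  K.c_cont.comp (L.φ_cont.comp (continuous_id.prodMk continuous_const))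

theorem int (x : X) (s t : ℝ) : IntervalIntegrable (fun s => K.c (L.φ s x)) volume s t :=
  (K.orb_cont x).intervalIntegrable _ _

@[simp] theorem σ_zero (x : X) : K.σ 0 x = 0 := intervalIntegral.integral_same

theorem σ_add (s t : ℝ) (x : X) : K.σ (s + t) x = K.σ t x + K.σ s (L.φ t x) := by
  unfold σ
  have h1 : ∫ r in (0 : ℝ)..s, K.c (L.φ r (L.φ t x)) = ∫ r in t..(s + t), K.c (L.φ r x) := by
    have h2 : (fun r => K.c (L.φ r (L.φ t x))) = fun r => K.c (L.φ (r + t) x) := by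
      funext r
      rw [L.φ_add]
    rw [h2, intervalIntegral.integral_comp_add_right (fun r => K.c (L.φ r x)) t, zero_add]
  rw [h1, intervalIntegral.integral_add_adjacent_intervals (K.int x 0 t) (K.int x t (s + t))]

theorem σ_neg (t : ℝ) (x : X) : K.σ (-t) x = -K.σ t (L.φ (-t) x) := by
  have h := K.σ_add t (-t) x
  rw [add_neg_cancel, σ_zero] at h
  linarith

/-- the bounds -/
theorem σ_ge {t : ℝ} (ht : 0 ≤ t) (x : X) : K.lo * t ≤ K.σ t x := by
  have h : ∫ _ in (0 : ℝ)..t, K.lo ≤ K.σ t x :=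
    intervalIntegral.integral_mono_on ht (continuous_const.intervalIntegrable _ _) (K.int x 0 t)
      fun s _ => K.c_lo _
  rw [intervalIntegral.integral_const, smul_eq_mul, sub_zero] at h
  linarith

theorem σ_le {t : ℝ} (ht : 0 ≤ t) (x : X) : K.σ t x ≤ K.hi * t := by
  have h : K.σ t x ≤ ∫ _ in (0 : ℝ)..t, K.hi :=
    intervalIntegral.integral_mono_on ht (K.int x 0 t) (continuous_const.intervalIntegrable _ _)
      fun s _ => K.c_hi _
  rw [intervalIntegral.integral_const, smul_eq_mul, sub_zero] at h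
  linarith

theorem σ_nonneg {t : ℝ} (ht : 0 ≤ t) (x : X) : 0 ≤ K.σ t x :=
  (mul_nonneg K.lo_pos.le ht).trans (K.σ_ge ht x)

theorem σ_pos {t : ℝ} (ht : 0 < t) (x : X) : 0 < K.σ t x :=
  (mul_pos K.lo_pos ht).trans_le (K.σ_ge ht.le x)

/-- the increments: `lo (t - s) ≤ σ t x - σ s x ≤ hi (t - s)` for `s ≤ t` (any signs) -/
theorem σ_sub_ge {s t : ℝ} (h : s ≤ t) (x : X) : K.lo * (t - s) ≤ K.σ t x - K.σ s x := by
  have h1 := K.σ_add (t - s) s x
  rw [sub_add_cancel] at h1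
  have h2 := K.σ_ge (sub_nonneg.2 h) (L.φ s x)
  linarith

theorem σ_sub_le {s t : ℝ} (h : s ≤ t) (x : X) : K.σ t x - K.σ s x ≤ K.hi * (t - s) := by
  have h1 := K.σ_add (t - s) s x
  rw [sub_add_cancel] at h1
  have h2 := K.σ_le (sub_nonneg.2 h) (L.φ s x)
  linarith

theorem σ_strictMono (x : X) : StrictMono fun t => K.σ t x := by
  intro s t h
  have h1 := K.σ_sub_ge h.le x
  have h2 : 0 < K.lo * (t - s) := mul_pos K.lo_pos (sub_pos.2 h)
  show K.σ s x < K.σ t x
  linarith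

theorem σ_le_σ {s t : ℝ} (h : s ≤ t) (x : X) : K.σ s x ≤ K.σ t x := (K.σ_strictMono x).monotone h

/-- for negative times the two bounds change places -/
theorem σ_neg_le {t : ℝ} (ht : 0 ≤ t) (x : X) : K.σ (-t) x ≤ -(K.lo * t) := by
  rw [K.σ_neg]
  have := K.σ_ge ht (L.φ (-t) x)
  linarith

theorem σ_neg_ge {t : ℝ} (ht : 0 ≤ t) (x : X) : -(K.hi * t) ≤ K.σ (-t) x := by
  rw [K.σ_neg]
  have := K.σ_le ht (L.φ (-t) x)
  linarith

theorem σ_cont : Continuous fun p : ℝ × X => K.σ p.1 p.2 := by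
  have h1 : Continuous (Function.uncurry fun (p : ℝ × X) (s : ℝ) => K.c (L.φ s p.2)) :=
    K.c_cont.comp (L.φ_cont.comp (continuous_snd.prodMk (continuous_snd.comp continuous_fst)))
  exact intervalIntegral.continuous_parametric_intervalIntegral_of_continuous h1 continuous_fst

theorem σ_cont_left (x : X) : Continuous fun t => K.σ t x :=
  K.σ_cont.comp (continuous_id.prodMk continuous_const)

theorem σ_cont_right (t : ℝ) : Continuous fun x => K.σ t x :=
  K.σ_cont.comp (continuous_const.prodMk continuous_id)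

theorem σ_smul (g : Γ) (t : ℝ) (x : X) : K.σ t (g • x) = K.σ t x := by
  unfold σ
  congr 1
  funext s
  rw [L.φ_smul, K.c_smul]

theorem σ_rot (a : O2) (t : ℝ) (x : X) : K.σ t (L.rot a x) = K.σ t x := by
  unfold σ
  congr 1
  funext s
  rw [← L.rot_φ, K.c_rot]

/-- the flipped orbit takes the same time -/
theorem σ_flip (t : ℝ) (x : X) : K.σ t (L.flip (L.φ t x)) = K.σ t x := by
  unfold σ
  have h1 : (fun s => K.c (L.φ s (L.flip (L.φ t x)))) = fun s => K.c (L.φ (t - s) x) := by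
    funext s
    have h2 := L.flip_φ (-s) (L.φ t x)
    rw [neg_neg] at h2
    rw [← h2, K.c_flip, ← L.φ_add]
    congr 2
    ring
  rw [h1, intervalIntegral.integral_comp_sub_left (fun r => K.c (L.φ r x)) t, sub_self, sub_zero]

theorem σ_flip' (t : ℝ) (x : X) : K.σ t (L.flip x) = K.σ t (L.φ (-t) x) := by
  have h := K.σ_flip t (L.φ (-t) x)
  rw [← L.φ_add, add_neg_cancel, L.φ_zero] at h
  exact h

/-! ### The inverse -/

theorem exists_time (x : X) (S : ℝ) : ∃ t, K.σ t x = S := by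
  have h1 : Tendsto (fun t => K.σ t x) atTop atTop := by
    refine tendsto_atTop_mono' atTop ?_ (tendsto_id.const_mul_atTop K.lo_pos)
    filter_upwards [eventually_ge_atTop (0 : ℝ)] with t ht using K.σ_ge ht x
  have h2 : Tendsto (fun t => K.σ t x) atBot atBot := by
    have h3 : Tendsto (fun t : ℝ => K.lo * t) atBot atBot :=
      tendsto_id.const_mul_atBot K.lo_pos
    refine tendsto_atBot_mono' atBot ?_ h3
    filter_upwards [eventually_le_atBot (0 : ℝ)] with t ht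
    have h4 := K.σ_neg_le (neg_nonneg.2 ht) x
    rw [neg_neg] at h4
    linarith
  exact (K.σ_cont_left x).surjective h1 h2 S

/-- the real time at which the clock shows `S` -/
def τ (S : ℝ) (x : X) : ℝ := (K.exists_time x S).choose

@[simp] theorem σ_τ (S : ℝ) (x : X) : K.σ (K.τ S x) x = S := (K.exists_time x S).choose_spec

@[simp] theorem τ_σ (t : ℝ) (x : X) : K.τ (K.σ t x) x = t :=
  (K.σ_strictMono x).injective (K.σ_τ _ x)

theorem τ_eq {S t : ℝ} {x : X} (h : K.σ t x = S) : K.τ S x = t := by rw [← h, K.τ_σ]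

@[simp] theorem τ_zero (x : X) : K.τ 0 x = 0 := K.τ_eq (K.σ_zero x)

theorem τ_strictMono (x : X) : StrictMono fun S => K.τ S x := by
  intro S S' h
  by_contra h1
  have h2 := K.σ_le_σ (not_lt.1 h1) x
  rw [σ_τ, σ_τ] at h2
  exact absurd h (not_lt.2 h2)

theorem τ_nonneg {S : ℝ} (hS : 0 ≤ S) (x : X) : 0 ≤ K.τ S x := by
  have h := (K.τ_strictMono x).monotone hS
  simpa using h

theorem τ_pos {S : ℝ} (hS : 0 < S) (x : X) : 0 < K.τ S x := by
  have h := K.τ_strictMono x hS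
  simpa using h

theorem le_τ {S : ℝ} (hS : 0 ≤ S) (x : X) : S / K.hi ≤ K.τ S x := by
  have h := K.σ_le (K.τ_nonneg hS x) x
  rw [σ_τ] at h
  rw [div_le_iff₀ K.hi_pos]
  linarith

theorem τ_le {S : ℝ} (hS : 0 ≤ S) (x : X) : K.τ S x ≤ S / K.lo := by
  have h := K.σ_ge (K.τ_nonneg hS x) x
  rw [σ_τ] at h
  rw [le_div_iff₀ K.lo_pos]
  linarith

theorem τ_add (S S' : ℝ) (x : X) : K.τ (S + S') x = K.τ S x + K.τ S' (L.φ (K.τ S x) x) := by
  refine K.τ_eq ?_
  rw [add_comm (K.τ S x), K.σ_add, σ_τ, σ_τ]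

theorem τ_neg (S : ℝ) (x : X) : K.τ (-S) x = -K.τ S (L.φ (K.τ (-S) x) x) := by
  have h := K.τ_add (-S) S x
  rw [neg_add_cancel, τ_zero] at h
  linarith

theorem τ_smul (g : Γ) (S : ℝ) (x : X) : K.τ S (g • x) = K.τ S x := by
  refine K.τ_eq ?_
  rw [K.σ_smul, σ_τ]

theorem τ_rot (a : O2) (S : ℝ) (x : X) : K.τ S (L.rot a x) = K.τ S x := by
  refine K.τ_eq ?_
  rw [K.σ_rot, σ_τ]

/-- `|τ S x - τ S' x| ≤ |S - S'| / lo` and the time is continuous in both variables -/
theorem abs_τ_sub_le (S t : ℝ) (x : X) : |K.τ S x - t| ≤ |S - K.σ t x| / K.lo := by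
  rw [le_div_iff₀ K.lo_pos]
  rcases le_total t (K.τ S x) with h | h
  · have h1 := K.σ_sub_ge h x
    rw [σ_τ] at h1
    rw [abs_of_nonneg (sub_nonneg.2 h)]
    exact (by linarith : (K.τ S x - t) * K.lo ≤ S - K.σ t x).trans (le_abs_self _)
  · have h1 := K.σ_sub_ge h x
    rw [σ_τ] at h1
    rw [abs_of_nonpos (sub_nonpos.2 h)]
    refine (by linarith : -(K.τ S x - t) * K.lo ≤ -(S - K.σ t x)).trans (neg_le_abs _)

theorem τ_cont : Continuous fun p : ℝ × X => K.τ p.1 p.2 := by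
  rw [continuous_iff_continuousAt]
  rintro ⟨S, x⟩
  rw [ContinuousAt, tendsto_iff_norm_sub_tendsto_zero]
  have h1 : Tendsto (fun p : ℝ × X => |p.1 - K.σ (K.τ S x) p.2| / K.lo) (𝓝 (S, x)) (𝓝 0) := by
    have h2 : Continuous fun p : ℝ × X => |p.1 - K.σ (K.τ S x) p.2| / K.lo :=
      ((continuous_fst.sub ((K.σ_cont_right _).comp continuous_snd)).abs).div_const _
    have h3 := h2.tendsto (S, x)
    simp only [σ_τ, sub_self, abs_zero, zero_div] at h3
    exact h3
  refine squeeze_zero (fun p => norm_nonneg _) (fun p => ?_) h1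
  exact K.abs_τ_sub_le p.1 (K.τ S x) p.2

/-! ### Uniform continuity of the clock -/

theorem uc : UniformContinuous K.c := by
  obtain ⟨K₀, hK₀, hc⟩ := L.cocompact
  have hK1 : IsCompact (cthickening 1 K₀) := hK₀.cthickening
  have h1 := hK1.uniformContinuousOn_of_continuous K.c_cont.continuousOn
  rw [Metric.uniformContinuousOn_iff] at h1
  rw [Metric.uniformContinuous_iff]
  intro ε hε
  obtain ⟨δ, hδ, h2⟩ := h1 ε hε
  refine ⟨min δ 1, lt_min hδ one_pos, fun {x y} hxy => ?_⟩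
  obtain ⟨g, hg⟩ := hc x
  have hd : dist (g • x) (g • y) = dist x y := dist_smul g x y
  have hx : g • x ∈ cthickening 1 K₀ := self_subset_cthickening K₀ hg
  have hy : g • y ∈ cthickening 1 K₀ := by
    refine mem_cthickening_of_dist_le (g • y) (g • x) 1 K₀ hg ?_
    rw [dist_comm, hd]
    exact (hxy.trans_le (min_le_right _ _)).le
  have h3 := h2 (g • x) hx (g • y) hy (by rw [hd]; exact hxy.trans_le (min_le_left _ _))
  rwa [K.c_smul, K.c_smul] at h3

/-- two orbits which stay close show nearly the same time -/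
theorem exists_close {η : ℝ} (hη : 0 < η) : ∃ δ > 0, ∀ (x y : X) (t : ℝ), 0 ≤ t →
    (∀ s ∈ Icc 0 t, dist (L.φ s x) (L.φ s y) < δ) → |K.σ t y - K.σ t x| ≤ η * K.σ t x := by
  obtain ⟨δ, hδ, h⟩ := Metric.uniformContinuous_iff.1 K.uc (η * K.lo) (mul_pos hη K.lo_pos)
  refine ⟨δ, hδ, fun x y t ht hs => ?_⟩
  have h1 : K.σ t y - K.σ t x = ∫ s in (0 : ℝ)..t, (K.c (L.φ s y) - K.c (L.φ s x)) :=
    (intervalIntegral.integral_sub (K.int y 0 t) (K.int x 0 t)).symm
  have h2 : ‖∫ s in (0 : ℝ)..t, (K.c (L.φ s y) - K.c (L.φ s x))‖ ≤ η * K.lo * |t - 0| := by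
    refine intervalIntegral.norm_integral_le_of_norm_le_const fun s hs' => ?_
    rw [uIoc_of_le ht] at hs'
    have h3 := h (hs s ⟨hs'.1.le, hs'.2⟩)
    rw [Real.dist_eq, abs_sub_comm] at h3
    exact h3.le
  rw [h1]
  rw [Real.norm_eq_abs] at h2
  refine h2.trans ?_
  rw [sub_zero, abs_of_nonneg ht, mul_assoc]
  exact mul_le_mul_of_nonneg_left (K.σ_ge ht x) hη.le

/-- two positively asymptotic frames: the clocks differ by at most `η σ + C` -/
theorem exists_hol_asym {η : ℝ} (hη : 0 < η) (Q : Set (B × X)) (hQ : IsCompact Q)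
    (hne : ∀ p ∈ Q, p.1 ≠ L.ep p.2) : ∃ C, ∀ p ∈ Q, ∀ t ≥ (0 : ℝ),
    |K.σ t (L.hol p.1 p.2) - K.σ t p.2| ≤ η * K.σ t p.2 + C := by
  obtain ⟨δ, hδ, h⟩ := K.exists_close hη
  obtain ⟨C, hC⟩ := L.hol_asym Q hQ hne
  obtain ⟨T, hT0, hT⟩ : ∃ T : ℝ, 0 ≤ T ∧ ∀ t ≥ T, C * Real.exp (-L.χ * t) < δ := by
    have h1 : Tendsto (fun t : ℝ => C * Real.exp (-L.χ * t)) atTop (𝓝 (C * 0)) := by
      refine Tendsto.const_mul C (Real.tendsto_exp_atBot.comp ?_)
      exact tendsto_id.const_mul_atTop_of_neg (neg_neg_iff_pos.2 L.χ_pos)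
    rw [mul_zero] at h1
    obtain ⟨T, hT⟩ := eventually_atTop.1 (h1.eventually (gt_mem_nhds hδ))
    exact ⟨max T 0, le_max_right _ _, fun t ht => hT t ((le_max_left _ _).trans ht)⟩
  refine ⟨2 * (K.hi * T), fun p hp t ht => ?_⟩
  rcases le_total t T with h1 | h1
  · have h2 := K.σ_nonneg ht p.2
    have h3 := K.σ_le ht p.2
    have h4 := K.σ_nonneg ht (L.hol p.1 p.2)
    have h5 := K.σ_le ht (L.hol p.1 p.2)
    have h6 : K.hi * t ≤ K.hi * T := mul_le_mul_of_nonneg_left h1 K.hi_pos.le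
    have h7 : 0 ≤ η * K.σ t p.2 := mul_nonneg hη.le h2
    rw [abs_le]
    constructor <;> linarith
  · have hd : ∀ s ∈ Icc 0 (t - T), dist (L.φ s (L.φ T p.2)) (L.φ s (L.φ T (L.hol p.1 p.2))) < δ := by
      intro s hs
      rw [← L.φ_add, ← L.φ_add]
      exact (hC p hp (s + T) (by linarith [hs.1])).trans_lt (hT _ (by linarith [hs.1]))
    have h2 := h (L.φ T p.2) (L.φ T (L.hol p.1 p.2)) (t - T) (sub_nonneg.2 h1) hd
    have h3 := K.σ_add (t - T) T p.2
    have h4 := K.σ_add (t - T) T (L.hol p.1 p.2)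
    rw [sub_add_cancel] at h3 h4
    have h5 := K.σ_nonneg hT0 p.2
    have h6 := K.σ_le hT0 p.2
    have h7 := K.σ_nonneg hT0 (L.hol p.1 p.2)
    have h8 := K.σ_le hT0 (L.hol p.1 p.2)
    have h9 : 0 ≤ η * K.σ T p.2 := mul_nonneg hη.le h5
    rw [h3, h4]
    rw [abs_le] at h2 ⊢
    constructor <;> linarith [h2.1, h2.2]

end Clock

end Vale.Agent.P207.N4.H97
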