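import Mathlib

/-!
# P207: growth subspaces of a linear automorphism, and the logarithm of its hyperbolic part

`Slow T c` : the vectors with `‖T ^ n v‖ ≤ C e^(c n)`; `Gs A A' μ` : the vectors which grow at the
exact rate `μ` under `A` (and `-μ` under the inverse `A'`). They are independent and span; so there
is `H` with `H = μ` on `Gs A A' μ` (`exists_log`).
-/

open Set Filter Topology Metric Module
open scoped TensorProduct

noncomputable section

namespace Vale.Agent.P207.H97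

variable {V : Type} [NormedAddCommGroup V] [NormedSpace ℝ V]

/-- exponential growth at most `c` -/
def Slow (T : V →L[ℝ] V) (c : ℝ) : Submodule ℝ V where
  carrier := {v | ∃ C : ℝ, ∀ n : ℕ, ‖(T ^ n) v‖ ≤ C * Real.exp (c * n)}
  zero_mem' := ⟨0, by simp⟩
  add_mem' := by
    rintro v w ⟨C, hC⟩ ⟨D, hD⟩
    refine ⟨C + D, fun n => ?_⟩
    rw [map_add, add_mul]
    exact (norm_add_le _ _).trans (add_le_add (hC n) (hD n))
  smul_mem' := by
    rintro a v ⟨C, hC⟩
    refine ⟨|a| * C, fun n => ?_⟩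
    rw [map_smul, norm_smul, mul_assoc]
    exact mul_le_mul_of_nonneg_left (hC n) (abs_nonneg a)

lemma mem_slow {T : V →L[ℝ] V} {c : ℝ} {v : V} :
    v ∈ Slow T c ↔ ∃ C : ℝ, ∀ n : ℕ, ‖(T ^ n) v‖ ≤ C * Real.exp (c * n) := Iff.rfl

lemma slow_mono {T : V →L[ℝ] V} {c d : ℝ} (h : c ≤ d) : Slow T c ≤ Slow T d := by
  rintro v ⟨C, hC⟩
  have hC0 : 0 ≤ C := by
    have := hC 0
    simp only [pow_zero, Nat.cast_zero, mul_zero, Real.exp_zero, mul_one] at this
    exact (norm_nonneg _).trans this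
  exact ⟨C, fun n => (hC n).trans (by gcongr)⟩

/-- a uniform bound -/
lemma slow_unif [FiniteDimensional ℝ V] {T : V →L[ℝ] V} {c : ℝ} {W : Submodule ℝ V}
    (hW : W ≤ Slow T c) :
    ∃ C : ℝ, 0 ≤ C ∧ ∀ n : ℕ, ∀ w ∈ W, ‖(T ^ n) w‖ ≤ C * Real.exp (c * n) * ‖w‖ := by
  have : CompleteSpace W := FiniteDimensional.complete ℝ W
  obtain ⟨C, hC⟩ := banach_steinhaus (E := W) (F := V) (σ₁₂ := RingHom.id ℝ)
    (g := fun n : ℕ => Real.exp (-(c * n)) • ((T ^ n) ∘L W.subtypeL)) (by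
      intro x
      obtain ⟨C, hC⟩ := hW x.2
      refine ⟨C, fun n => ?_⟩
      have h1 := hC n
      have h2 : ‖(Real.exp (-(c * n)) • ((T ^ n) ∘L W.subtypeL)) x‖
          = Real.exp (-(c * n)) * ‖(T ^ n) (x : V)‖ := by
        simp [norm_smul]
      rw [h2]
      calc Real.exp (-(c * n)) * ‖(T ^ n) (x : V)‖
          ≤ Real.exp (-(c * n)) * (C * Real.exp (c * n)) := by gcongr
        _ = C := by
            rw [mul_comm C, ← mul_assoc, ← Real.exp_add]
            simp)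
  refine ⟨C, (norm_nonneg _).trans (hC 0), fun n w hw => ?_⟩
  have h1 := ContinuousLinearMap.le_of_opNorm_le _ (hC n) (⟨w, hw⟩ : W)
  have h2 : ‖(Real.exp (-(c * n)) • ((T ^ n) ∘L W.subtypeL)) (⟨w, hw⟩ : W)‖
      = Real.exp (-(c * n)) * ‖(T ^ n) w‖ := by
    simp [norm_smul]
  rw [h2] at h1
  have h3 : ‖(T ^ n) w‖ = Real.exp (c * n) * (Real.exp (-(c * n)) * ‖(T ^ n) w‖) := by
    rw [← mul_assoc, ← Real.exp_add]
    simp
  rw [h3]
  calc Real.exp (c * n) * (Real.exp (-(c * n)) * ‖(T ^ n) w‖)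
      ≤ Real.exp (c * n) * (C * ‖(⟨w, hw⟩ : W)‖) := by gcongr
    _ = C * Real.exp (c * n) * ‖w‖ := by simp; ring

lemma slow_map {T : V →L[ℝ] V} {c : ℝ} {v : V} (hv : v ∈ Slow T c) : T v ∈ Slow T c := by
  obtain ⟨C, hC⟩ := hv
  refine ⟨C * Real.exp c, fun n => ?_⟩
  have h := hC (n + 1)
  rw [pow_succ] at h
  refine h.trans (le_of_eq ?_)
  rw [mul_assoc, ← Real.exp_add]
  congr 2
  push_cast
  ring

lemma slow_map' {A A' : V →L[ℝ] V} (h : A' ∘L A = ContinuousLinearMap.id ℝ V) {c : ℝ} {v : V}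
    (hv : v ∈ Slow A' c) : A v ∈ Slow A' c := by
  obtain ⟨C, hC⟩ := hv
  have hC0 : 0 ≤ C := by
    have := hC 0
    simp only [pow_zero, Nat.cast_zero, mul_zero, Real.exp_zero, mul_one] at this
    exact (norm_nonneg _).trans this
  refine ⟨max ‖A v‖ (C * Real.exp (-c)), fun n => ?_⟩
  rcases n with _ | n
  · simp
  · have h1 : (A' ^ (n + 1)) (A v) = (A' ^ n) v := by
      rw [pow_succ]
      show (A' ^ n) (A' (A v)) = (A' ^ n) v
      have : A' (A v) = v := by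
        have := congrArg (fun f : V →L[ℝ] V => f v) h
        simpa using this
      rw [this]
    rw [h1]
    refine (hC n).trans ?_
    calc C * Real.exp (c * n) = (C * Real.exp (-c)) * Real.exp (c * ((n + 1 : ℕ) : ℝ)) := by
          rw [mul_assoc, ← Real.exp_add]
          congr 2
          push_cast
          ring
      _ ≤ _ := by
          gcongr
          exact le_max_right _ _

lemma slow_disj [FiniteDimensional ℝ V] {A A' : V →L[ℝ] V}
    (h : A' ∘L A = ContinuousLinearMap.id ℝ V) {c c' : ℝ} (hc : c + c' < 0) {v : V}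
    (h1 : v ∈ Slow A c) (h2 : v ∈ Slow A' c') : v = 0 := by
  set W : Submodule ℝ V := Slow A c ⊓ Slow A' c' with hW
  obtain ⟨C, hC0, hC⟩ := slow_unif (T := A') (c := c') (W := W) inf_le_right
  have hinv : ∀ n : ℕ, (A ^ n) v ∈ W := by
    intro n
    induction n with
    | zero => exact ⟨by simpa using h1, by simpa using h2⟩
    | succ n ih =>
      rw [pow_succ']
      exact ⟨slow_map ih.1, slow_map' h ih.2⟩
  have hid : ∀ n : ℕ, (A' ^ n) ((A ^ n) v) = v := by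
    intro n
    induction n with
    | zero => simp
    | succ n ih =>
      rw [pow_succ, pow_succ']
      show (A' ^ n) (A' (A ((A ^ n) v))) = v
      have : A' (A ((A ^ n) v)) = (A ^ n) v := by
        have := congrArg (fun f : V →L[ℝ] V => f ((A ^ n) v)) h
        simpa using this
      rw [this, ih]
  obtain ⟨D, hD⟩ := h1
  have hb : ∀ n : ℕ, ‖v‖ ≤ C * D * Real.exp ((c + c') * n) := by
    intro n
    calc ‖v‖ = ‖(A' ^ n) ((A ^ n) v)‖ := by rw [hid n]
      _ ≤ C * Real.exp (c' * n) * ‖(A ^ n) v‖ := hC n _ (hinv n)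
      _ ≤ C * Real.exp (c' * n) * (D * Real.exp (c * n)) := by
          gcongr
          exact hD n
      _ = C * D * Real.exp ((c + c') * n) := by
          rw [add_mul, Real.exp_add]
          ring
  have hlim : Tendsto (fun n : ℕ => C * D * Real.exp ((c + c') * n)) atTop (𝓝 (C * D * 0)) := by
    refine Tendsto.const_mul _ ?_
    refine Real.tendsto_exp_atBot.comp ?_
    exact (tendsto_natCast_atTop_atTop (R := ℝ)).const_mul_atTop_of_neg hc
  rw [mul_zero] at hlim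
  have := ge_of_tendsto' hlim hb
  exact norm_le_zero_iff.mp this

/-- the vectors which grow exactly at the rate `μ` -/
def Gs (A A' : V →L[ℝ] V) (μ : ℝ) : Submodule ℝ V :=
  ⨅ ε : {ε : ℝ // 0 < ε}, Slow A (μ + ε) ⊓ Slow A' (-μ + ε)

lemma mem_gs {A A' : V →L[ℝ] V} {μ : ℝ} {v : V} :
    v ∈ Gs A A' μ ↔ ∀ ε > 0, v ∈ Slow A (μ + ε) ∧ v ∈ Slow A' (-μ + ε) := by
  simp [Gs, Submodule.mem_iInf]

lemma gs_lt {A A' : V →L[ℝ] V} {μ : ℝ} {v : V} (hv : v ∈ ⨆ ν : {ν : ℝ // ν < μ}, Gs A A' ν) :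
    ∃ c < μ, v ∈ Slow A c := by
  refine Submodule.iSup_induction (motive := fun v => ∃ c < μ, v ∈ Slow A c) _ hv ?_ ?_ ?_
  · rintro ⟨ν, hν⟩ x hx
    refine ⟨ν + (μ - ν) / 2, by linarith, ?_⟩
    exact (mem_gs.mp hx ((μ - ν) / 2) (by linarith)).1
  · exact ⟨μ - 1, by linarith, Submodule.zero_mem _⟩
  · rintro x y ⟨c, hc, hx⟩ ⟨d, hd, hy⟩
    exact ⟨max c d, max_lt hc hd, Submodule.add_mem _ (slow_mono (le_max_left _ _) hx)
      (slow_mono (le_max_right _ _) hy)⟩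

lemma gs_gt {A A' : V →L[ℝ] V} {μ : ℝ} {v : V} (hv : v ∈ ⨆ ν : {ν : ℝ // μ < ν}, Gs A A' ν) :
    ∃ c < -μ, v ∈ Slow A' c := by
  refine Submodule.iSup_induction (motive := fun v => ∃ c < -μ, v ∈ Slow A' c) _ hv ?_ ?_ ?_
  · rintro ⟨ν, hν⟩ x hx
    refine ⟨-ν + (ν - μ) / 2, by linarith, ?_⟩
    exact (mem_gs.mp hx ((ν - μ) / 2) (by linarith)).2
  · exact ⟨-μ - 1, by linarith, Submodule.zero_mem _⟩
  · rintro x y ⟨c, hc, hx⟩ ⟨d, hd, hy⟩
    exact ⟨max c d, max_lt hc hd, Submodule.add_mem _ (slow_mono (le_max_left _ _) hx)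
      (slow_mono (le_max_right _ _) hy)⟩

lemma gs_indep [FiniteDimensional ℝ V] {A A' : V →L[ℝ] V}
    (h : A' ∘L A = ContinuousLinearMap.id ℝ V) : iSupIndep (Gs A A') := by
  intro μ
  rw [Submodule.disjoint_def]
  intro v hv hv'
  have hle : (⨆ (j : ℝ) (_ : j ≠ μ), Gs A A' j) ≤
      (⨆ ν : {ν : ℝ // ν < μ}, Gs A A' ν) ⊔ ⨆ ν : {ν : ℝ // μ < ν}, Gs A A' ν := by
    refine iSup₂_le fun ν hν => ?_
    rcases lt_or_gt_of_ne hν with h' | h'
    · exact le_sup_of_le_left (le_iSup (fun ν : {ν : ℝ // ν < μ} => Gs A A' ν) ⟨ν, h'⟩)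
    · exact le_sup_of_le_right (le_iSup (fun ν : {ν : ℝ // μ < ν} => Gs A A' ν) ⟨ν, h'⟩)
  obtain ⟨s, hs, f, hf, hsf⟩ := Submodule.mem_sup.mp (hle hv')
  obtain ⟨c, hc, hs⟩ := gs_lt hs
  obtain ⟨d, hd, hf⟩ := gs_gt hf
  have hv2 := mem_gs.mp hv
  -- `f = 0`
  have hf0 : f = 0 := by
    have h1 : f ∈ Slow A (μ + (-μ - d) / 2) := by
      have : f = v - s := by rw [← hsf]; abel
      rw [this]
      exact Submodule.sub_mem _ (hv2 _ (by linarith)).1 (slow_mono (by linarith) hs)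
    exact slow_disj h (by linarith) h1 hf
  rw [hf0, add_zero] at hsf
  have h1 : v ∈ Slow A c := by rw [← hsf]; exact hs
  have h2 : v ∈ Slow A' (-μ + (μ - c) / 2) := (hv2 _ (by linarith)).2
  exact slow_disj h (by linarith) h1 h2

end Vale.Agent.P207.H97
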